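import Vale.Agent.Lib.P038.SatK.Shapes.S6_4_0f
noncomputable section
namespace Vale.Agent.Lib.P038.SatK.I.P6_4
open Vale.Agent.Lib.P038.Sat Vale.Agent.Lib.P038.SatK
def W : Nat := 377
def M : Nat := 307828173409331868845930000782371982852185463050511302093346042220669701339821957901673955116288403443801781174271
def GT : Nat := 87646799215909581197728320017779019696150998492287936807831023735956466056151570649553201531389547203969844522786621200856737755648251137925756371150588697390640618042115149604441941474967037893722993688357312878736441024435195315639904344403621778597186859351542395104123243478729448197198243592941251102621965462407683110756724144366652428554395323331239351521733151986067038953924810341017104739918755503512871948655742507638248662527145944310023066187312005639724622120459705524380979124886774452018301949582056788262345140656332259305788398444267649416933791139210831370486530123404233449307076829348838488880344749503617566957410341308408202032780657162553078583877740537106170005534044327834714585889772653414075607712126199931080999812261268271673221539900130019338113534574322700149796603745607179334706350476376596655779474536758616818241708833606945656208964075843904660858975791016402124274338147628302610187897541293828330527261784902027258809356087672856726363195003175147047093545970934603403178877603805082076056959787500474335269958691750161818530336769562788197235469400230401015475400594804664137155151361041608686631498601207374762374719407804933883770511754989437098241080840771445387723023173596414712480920940022362433518334003819377768119458959956861903764547930042396059093042970306229970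20800523707631520433543534005458047100026916502404671114632116488680336655510958789151450174345582628090246622617064351730635426851011538241612568560931528156482042707530584973203106922579796775588879718862032867184929182298264565223383403094193969996900215984938982507290369605802864180642918120239003788633002753463651618016814635575257813107588800141065651571366861684635353869134542095714178939236301124492306263029840493996263120823758023695805386841062398596868004654466856884193302426089999828959657968169353462470436787145867397266749725888464723510294802106472251348889331054767144370604635261941096072665118346241503410409590694730892408043694642188861271739861706754443128415347794427914824291525804045935216342309898686424570523541818628991145836436361598217984752752491207594958247924207309713485599749032478327909600079028456600571233078178085298218716142023731788407022694539778268091346878214628088619726312394853680732091123459023747753634473479711775181208042827223444604429864664752983403086516787403478332608025926053113168465387647607067949409556258116041442924701946506330232121536011008757052457407274612029768770362632380797384119527132986311768507498241170025216294907159267054308873360166416287708260098703596054307593223049469548225720715802917959515519098540039104477950485231742032866619298581303580370902131387680641727023931534345070671663703513967634562182359722117190400357121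
def h0 : T := (T.l (nat_lit 0))
def H : T := h0
theorem hlast : getB H 0 = 0 := by decide +kernel
end Vale.Agent.Lib.P038.SatK.I.P6_4
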